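import Vale.Agent.P045.Defs

namespace Vale.Agent.P045

open Finset

variable {V : Type*} [DecidableEq V]

/-- Caro–Wei for a reflexive symmetric relation on a finite set. -/
theorem caroWei {α : Type*} [DecidableEq α] (R : α → α → Prop) [DecidableRel R]
    (hrefl : ∀ a, R a a) (hsymm : ∀ a b, R a b → R b a) :
    ∀ (n : ℕ) (H : Finset α), H.card = n →
      ∃ M ⊆ H, (∀ a ∈ M, ∀ b ∈ M, a ≠ b → ¬ R a b) ∧
        ∑ a ∈ H, (1 : ℚ) / ((H.filter (fun b => R a b)).card : ℚ) ≤ M.card := by
  intro n
  induction n using Nat.strong_induction_on with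
  | _ n ih =>
    intro H hn
    by_cases hH : H = ∅
    · subst hH
      exact ⟨∅, by simp, by simp, by simp⟩
    · have hne : H.Nonempty := Finset.nonempty_iff_ne_empty.mpr hH
      obtain ⟨e, heH, hmin⟩ := H.exists_min_image
        (fun a => (H.filter (fun b => R a b)).card) hne
      set K := H.filter (fun b => ¬ R e b) with hK
      have hKH : K ⊆ H := Finset.filter_subset _ _
      have heK : e ∉ K := by simp [hK, hrefl]
      have hlt : K.card < n := by
        rw [← hn]
        exact Finset.card_lt_card ⟨hKH, fun h => heK (h heH)⟩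
      obtain ⟨M, hMK, hM, hsum⟩ := ih K.card hlt K rfl
      have heM : e ∉ M := fun h => heK (hMK h)
      refine ⟨insert e M, ?_, ?_, ?_⟩
      · intro a ha
        rcases Finset.mem_insert.mp ha with rfl | ha
        · exact heH
        · exact hKH (hMK ha)
      · intro a ha b hb hab
        rcases Finset.mem_insert.mp ha with ha' | ha'
        · rcases Finset.mem_insert.mp hb with hb' | hb'
          · exact absurd (ha'.trans hb'.symm) hab
          · have := (Finset.mem_filter.mp (hMK hb')).2
            rw [ha']; exact this
        · rcases Finset.mem_insert.mp hb with hb' | hb'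
          · have := (Finset.mem_filter.mp (hMK ha')).2
            rw [hb']
            exact fun h => this (hsymm _ _ h)
          · exact hM a ha' b hb' hab
      · have hsplit : ∑ a ∈ H, (1 : ℚ) / ((H.filter (fun b => R a b)).card : ℚ) =
            ∑ a ∈ H.filter (fun b => R e b), (1 : ℚ) / ((H.filter (fun b => R a b)).card : ℚ) +
            ∑ a ∈ K, (1 : ℚ) / ((H.filter (fun b => R a b)).card : ℚ) :=
          (Finset.sum_filter_add_sum_filter_not H (fun b => R e b) _).symm
        have hpos : 0 < (H.filter (fun b => R e b)).card :=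
          Finset.card_pos.mpr ⟨e, Finset.mem_filter.mpr ⟨heH, hrefl e⟩⟩
        have h1 : ∑ a ∈ H.filter (fun b => R e b),
            (1 : ℚ) / ((H.filter (fun b => R a b)).card : ℚ) ≤ 1 := by
          calc ∑ a ∈ H.filter (fun b => R e b),
              (1 : ℚ) / ((H.filter (fun b => R a b)).card : ℚ)
              ≤ ∑ a ∈ H.filter (fun b => R e b),
                (1 : ℚ) / ((H.filter (fun b => R e b)).card : ℚ) := by
                apply Finset.sum_le_sum
                intro a ha
                have := hmin a (Finset.mem_filter.mp ha).1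
                apply one_div_le_one_div_of_le
                · exact_mod_cast hpos
                · exact_mod_cast this
            _ = 1 := by
                rw [Finset.sum_const, nsmul_eq_mul]
                field_simp
        have h2 : ∑ a ∈ K, (1 : ℚ) / ((H.filter (fun b => R a b)).card : ℚ) ≤
            ∑ a ∈ K, (1 : ℚ) / ((K.filter (fun b => R a b)).card : ℚ) := by
          apply Finset.sum_le_sum
          intro a ha
          have hp : 0 < (K.filter (fun b => R a b)).card :=
            Finset.card_pos.mpr ⟨a, Finset.mem_filter.mpr ⟨ha, hrefl a⟩⟩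
          have hle : (K.filter (fun b => R a b)).card ≤ (H.filter (fun b => R a b)).card :=
            Finset.card_le_card (Finset.filter_subset_filter _ hKH)
          apply one_div_le_one_div_of_le
          · exact_mod_cast hp
          · exact_mod_cast hle
        rw [hsplit, Finset.card_insert_of_notMem heM]
        push_cast
        linarith

theorem IsPartite.mono {r : ℕ} {part : V → Fin r} {H K : Finset (Finset V)}
    (h : IsPartite r part H) (hK : K ⊆ H) : IsPartite r part K :=
  fun e he => h e (hK he)

theorem deg_mono {H K : Finset (Finset V)} (hK : K ⊆ H) (v : V) : deg K v ≤ deg H v :=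
  Finset.card_le_card (Finset.filter_subset_filter _ hK)

theorem card_edge {r : ℕ} {part : V → Fin r} {H : Finset (Finset V)}
    (h : IsPartite r part H) {e : Finset V} (he : e ∈ H) : e.card = r := by
  classical
  have h1 : e.card = (Finset.univ : Finset (Fin r)).card := by
    apply Finset.card_bij (fun v _ => part v)
    · intro a _; exact Finset.mem_univ _
    · intro a ha b hb hab
      obtain ⟨w, _, hw⟩ := h e he (part a)
      rw [hw a ⟨ha, rfl⟩, hw b ⟨hb, hab.symm⟩]
    · intro i _
      obtain ⟨w, hw, _⟩ := h e he i
      exact ⟨w, hw.1, hw.2⟩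
  rw [h1, Finset.card_univ, Fintype.card_fin]

/-- The number of edges meeting `e` (with `e`) is at most `Σ_{v ∈ e} deg v - r + 1`. -/
theorem meet_card {r : ℕ} {H : Finset (Finset V)} {e : Finset V} (he : e ∈ H)
    (hcard : e.card = r) :
    (H.filter (fun f => ¬ Disjoint e f)).card + r ≤ ∑ v ∈ e, deg H v + 1 := by
  classical
  have hsub : H.filter (fun f => ¬ Disjoint e f) ⊆
      insert e (e.biUnion (fun v => (H.filter (fun f => v ∈ f)).erase e)) := by
    intro f hf
    obtain ⟨hfH, hf⟩ := Finset.mem_filter.mp hf
    by_cases hfe : f = e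
    · exact Finset.mem_insert.mpr (Or.inl hfe)
    · rw [Finset.not_disjoint_iff] at hf
      obtain ⟨v, hve, hvf⟩ := hf
      refine Finset.mem_insert.mpr (Or.inr (Finset.mem_biUnion.mpr ⟨v, hve, ?_⟩))
      exact Finset.mem_erase.mpr ⟨hfe, Finset.mem_filter.mpr ⟨hfH, hvf⟩⟩
  have h1 := (Finset.card_le_card hsub).trans (Finset.card_insert_le _ _)
  have h2 := Finset.card_biUnion_le (s := e)
    (t := fun v => (H.filter (fun f => v ∈ f)).erase e)
  have h3 : ∑ v ∈ e, ((H.filter (fun f => v ∈ f)).erase e).card + r = ∑ v ∈ e, deg H v := by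
    have : ∀ v ∈ e, ((H.filter (fun f => v ∈ f)).erase e).card + 1 = deg H v := by
      intro v hv
      exact Finset.card_erase_add_one (Finset.mem_filter.mpr ⟨he, hv⟩)
    rw [← Finset.sum_congr rfl this, Finset.sum_add_distrib, Finset.sum_const, hcard]
    simp
  omega

end Vale.Agent.P045
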