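import Mathlib

/-! # Ryser's conjecture: definitions -/

namespace Vale.Agent.P045

open Finset

variable {V : Type*} [DecidableEq V]

/-- `H` is an `r`-partite `r`-uniform hypergraph (a finite set of edges, each a finite set of
vertices) with vertex classes the fibres of `part`: each edge has exactly one vertex in each
class. -/
def IsPartite (r : ℕ) (part : V → Fin r) (H : Finset (Finset V)) : Prop :=
  ∀ e ∈ H, ∀ i : Fin r, ∃! v, v ∈ e ∧ part v = i

/-- The number of edges of `H` through `v`. -/
def deg (H : Finset (Finset V)) (v : V) : ℕ := (H.filter (fun e => v ∈ e)).card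

/-- `M` is a set of pairwise disjoint edges of `H`. -/
def IsMatching (H M : Finset (Finset V)) : Prop :=
  M ⊆ H ∧ ∀ e ∈ M, ∀ f ∈ M, e ≠ f → Disjoint e f

/-- `C` meets every edge of `H`. -/
def IsCover (H : Finset (Finset V)) (C : Finset V) : Prop := ∀ e ∈ H, ∃ v ∈ e, v ∈ C

/-- The matching number. -/
noncomputable def nu (H : Finset (Finset V)) : ℕ :=
  sSup {k | ∃ M, IsMatching H M ∧ M.card = k}

/-- The covering number. -/
noncomputable def tau (H : Finset (Finset V)) : ℕ :=
  sInf {k | ∃ C, IsCover H C ∧ C.card = k}

end Vale.Agent.P045
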