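import Vale.Agent.P045.Core

namespace Vale.Agent.P045

open Finset

variable {V : Type*} [DecidableEq V]

theorem double_count (H : Finset (Finset V)) (g : V → ℚ) :
    ∑ e ∈ H, ∑ v ∈ e, g v = ∑ v ∈ H.biUnion id, (deg H v : ℚ) * g v := by
  rw [Finset.sum_comm' (s' := fun v => H.filter (fun e => v ∈ e)) (t' := H.biUnion id)]
  · apply Finset.sum_congr rfl
    intro v _
    rw [Finset.sum_const, nsmul_eq_mul]
    rfl
  · intro e v
    simp only [Finset.mem_filter, Finset.mem_biUnion, id]
    constructor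
    · rintro ⟨he, hv⟩; exact ⟨⟨he, hv⟩, e, he, hv⟩
    · rintro ⟨⟨he, hv⟩, _⟩; exact ⟨he, hv⟩

theorem side {r : ℕ} (hr : 2 ≤ r) (part : V → Fin r) (U : Finset V) :
    ∃ i : Fin r, r * (U.filter (fun v => part v = i)).card ≤ U.card := by
  by_contra hcon
  push Not at hcon
  have h1 : U.card = ∑ i : Fin r, (U.filter (fun v => part v = i)).card :=
    Finset.card_eq_sum_card_fiberwise (fun v _ => Finset.mem_univ _)
  have h2 : ∑ _i : Fin r, U.card < ∑ i : Fin r, r * (U.filter (fun v => part v = i)).card := by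
    apply Finset.sum_lt_sum_of_nonempty
    · exact ⟨⟨0, by omega⟩, Finset.mem_univ _⟩
    · intro i _; exact hcon i
  rw [← Finset.mul_sum, ← h1, Finset.sum_const, Finset.card_univ, Fintype.card_fin,
    smul_eq_mul] at h2
  exact lt_irrefl _ h2

theorem dense {r : ℕ} (hr : 2 ≤ r) (part : V → Fin r) (H : Finset (Finset V))
    (hH : IsPartite r part H)
    (hdeg : ∀ e ∈ H, ∀ v ∈ e, 2 ≤ deg H v)
    (hcrit : ∀ e ∈ H, (∑ v ∈ e, (1 : ℚ) / (deg H v : ℚ)) *
      ((H.filter (fun f => ¬ Disjoint e f)).card : ℚ) ≤ (r : ℚ) * ((r : ℚ) - 1)) :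
    ∃ M C, IsMatching H M ∧ IsCover H C ∧ C.card ≤ (r - 1) * M.card := by
  classical
  obtain ⟨M, hMH, hM, hsum⟩ := caroWei (fun e f : Finset V => e = f ∨ ¬ Disjoint e f)
    (fun a => Or.inl rfl)
    (fun a b h => h.elim (fun h => Or.inl h.symm) (fun h => Or.inr (fun h' => h h'.symm)))
    H.card H rfl
  have hfil : ∀ e ∈ H, H.filter (fun f => e = f ∨ ¬ Disjoint e f) =
      H.filter (fun f => ¬ Disjoint e f) := by
    intro e he
    apply Finset.filter_congr
    intro f _
    constructor
    · rintro (rfl | h)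
      · intro hd
        have : e = ∅ := by simpa using hd
        have hc := card_edge hH he
        rw [this] at hc
        simp at hc
        omega
      · exact h
    · exact fun h => Or.inr h
  obtain ⟨i, hi⟩ := side hr part (H.biUnion id)
  refine ⟨M, (H.biUnion id).filter (fun v => part v = i), ⟨hMH, ?_⟩, ?_, ?_⟩
  · intro a ha b hb hab
    have := hM a ha b hb hab
    push Not at this
    exact this.2
  · intro e he
    obtain ⟨v, ⟨hv, hpv⟩, _⟩ := hH e he i
    exact ⟨v, hv, Finset.mem_filter.mpr ⟨Finset.mem_biUnion.mpr ⟨e, he, hv⟩, hpv⟩⟩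
  · have hU : (((H.biUnion id).card : ℕ) : ℚ) = ∑ e ∈ H, ∑ v ∈ e, (1 : ℚ) / (deg H v : ℚ) := by
      rw [double_count, Finset.card_eq_sum_ones]
      push_cast
      apply Finset.sum_congr rfl
      intro v hv
      obtain ⟨e, he, hve⟩ := Finset.mem_biUnion.mp hv
      have : 2 ≤ deg H v := hdeg e he v hve
      have h0 : (deg H v : ℚ) ≠ 0 := by
        have : 0 < deg H v := by omega
        exact_mod_cast this.ne'
      field_simp
    have hle : ∑ e ∈ H, ∑ v ∈ e, (1 : ℚ) / (deg H v : ℚ) ≤
        ∑ e ∈ H, (r : ℚ) * ((r : ℚ) - 1) *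
          (1 / ((H.filter (fun f => e = f ∨ ¬ Disjoint e f)).card : ℚ)) := by
      apply Finset.sum_le_sum
      intro e he
      rw [hfil e he]
      have hp : (0 : ℚ) < ((H.filter (fun f => ¬ Disjoint e f)).card : ℚ) := by
        have : 0 < (H.filter (fun f => ¬ Disjoint e f)).card := by
          apply Finset.card_pos.mpr
          refine ⟨e, Finset.mem_filter.mpr ⟨he, ?_⟩⟩
          intro hd
          have : e = ∅ := by simpa using hd
          have hc := card_edge hH he
          rw [this] at hc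
          simp at hc
          omega
        exact_mod_cast this
      rw [mul_one_div, le_div_iff₀ hp]
      exact hcrit e he
    rw [← Finset.mul_sum] at hle
    have hr1 : (0 : ℚ) ≤ (r : ℚ) * ((r : ℚ) - 1) := by
      have : (2 : ℚ) ≤ (r : ℚ) := by exact_mod_cast hr
      nlinarith
    have h3 := mul_le_mul_of_nonneg_left hsum hr1
    have h4 : ((r * ((H.biUnion id).filter (fun v => part v = i)).card : ℕ) : ℚ) ≤
        (((H.biUnion id).card : ℕ) : ℚ) := by exact_mod_cast hi
    push_cast at h4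
    have h5 : (r : ℚ) * (((H.biUnion id).filter (fun v => part v = i)).card : ℚ) ≤
        (r : ℚ) * (((r : ℚ) - 1) * (M.card : ℚ)) := by
      rw [hU] at h4
      linarith
    have hrpos : (0 : ℚ) < (r : ℚ) := by
      have : 0 < r := by omega
      exact_mod_cast this
    have h6 := le_of_mul_le_mul_left h5 hrpos
    have h7 : (((H.biUnion id).filter (fun v => part v = i)).card : ℚ) ≤
        (((r - 1) * M.card : ℕ) : ℚ) := by
      rw [Nat.cast_mul, Nat.cast_sub (by omega : 1 ≤ r)]
      simpa using h6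
    exact_mod_cast h7

/-- The general criterion. -/
theorem crit {r : ℕ} (hr : 2 ≤ r) (part : V → Fin r) :
    ∀ (n : ℕ) (H : Finset (Finset V)), H.card = n → IsPartite r part H →
    (∀ K ⊆ H, (∀ e ∈ K, ∀ v ∈ e, 2 ≤ deg K v) → ∀ e ∈ K, (∑ v ∈ e, (1 : ℚ) / (deg K v : ℚ)) *
      ((K.filter (fun f => ¬ Disjoint e f)).card : ℚ) ≤ (r : ℚ) * ((r : ℚ) - 1)) →
    ∃ M C, IsMatching H M ∧ IsCover H C ∧ C.card ≤ (r - 1) * M.card := by
  intro n
  induction n using Nat.strong_induction_on with
  | _ n ih =>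
    intro H hn hH hcrit
    by_cases hdeg : ∀ e ∈ H, ∀ v ∈ e, 2 ≤ deg H v
    · exact dense hr part H hH hdeg (hcrit H subset_rfl hdeg)
    · push Not at hdeg
      obtain ⟨e, he, v, hv, hlt⟩ := hdeg
      have huniq : ∀ f ∈ H, v ∈ f → f = e := by
        intro f hf hvf
        by_contra hne
        have : ({f, e} : Finset (Finset V)) ⊆ H.filter (fun g => v ∈ g) := by
          intro g hg
          rcases Finset.mem_insert.mp hg with rfl | hg
          · exact Finset.mem_filter.mpr ⟨hf, hvf⟩
          · rw [Finset.mem_singleton.mp hg]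
            exact Finset.mem_filter.mpr ⟨he, hv⟩
        have h2 := Finset.card_le_card this
        rw [Finset.card_pair hne] at h2
        unfold deg at hlt
        omega
      have hce := card_edge hH he
      have hene : ¬ Disjoint e e := by
        intro hd
        have : e = ∅ := by simpa using hd
        rw [this] at hce
        simp at hce
        omega
      set K := H.filter (fun f => Disjoint e f) with hK
      have hKH : K ⊆ H := Finset.filter_subset _ _
      have heK : e ∉ K := fun h => hene (Finset.mem_filter.mp h).2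
      have hcard : K.card < n := by
        rw [← hn]
        exact Finset.card_lt_card ⟨hKH, fun h => heK (h he)⟩
      obtain ⟨M, C, hM, hC, hle⟩ := ih K.card hcard K rfl (hH.mono hKH)
        (fun L hL => hcrit L (hL.trans hKH))
      have heM : e ∉ M := fun h => heK (hM.1 h)
      refine ⟨insert e M, C ∪ e.erase v, ⟨?_, ?_⟩, ?_, ?_⟩
      · intro f hf
        rcases Finset.mem_insert.mp hf with rfl | hf
        · exact he
        · exact hKH (hM.1 hf)
      · intro a ha b hb hab
        rcases Finset.mem_insert.mp ha with ha' | ha'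
        · rcases Finset.mem_insert.mp hb with hb' | hb'
          · exact absurd (ha'.trans hb'.symm) hab
          · rw [ha']; exact (Finset.mem_filter.mp (hM.1 hb')).2
        · rcases Finset.mem_insert.mp hb with hb' | hb'
          · rw [hb']; exact (Finset.mem_filter.mp (hM.1 ha')).2.symm
          · exact hM.2 a ha' b hb' hab
      · intro f hf
        by_cases hd : Disjoint e f
        · obtain ⟨w, hw, hwC⟩ := hC f (Finset.mem_filter.mpr ⟨hf, hd⟩)
          exact ⟨w, hw, Finset.mem_union_left _ hwC⟩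
        · by_cases hfe : f = e
          · have : (e.erase v).Nonempty := by
              rw [← Finset.card_pos, Finset.card_erase_of_mem hv]
              omega
            obtain ⟨w, hw⟩ := this
            exact ⟨w, by rw [hfe]; exact Finset.mem_of_mem_erase hw,
              Finset.mem_union_right _ hw⟩
          · rw [Finset.not_disjoint_iff] at hd
            obtain ⟨w, hwe, hwf⟩ := hd
            have hwv : w ≠ v := by
              rintro rfl
              exact hfe (huniq f hf hwf)
            exact ⟨w, hwf, Finset.mem_union_right _ (Finset.mem_erase.mpr ⟨hwv, hwe⟩)⟩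
      · rw [Finset.card_insert_of_notMem heM]
        have h1 := Finset.card_union_le C (e.erase v)
        rw [Finset.card_erase_of_mem hv, hce] at h1
        have : (r - 1) * (M.card + 1) = (r - 1) * M.card + (r - 1) := by ring
        omega

theorem tau_le_of {r : ℕ} {H : Finset (Finset V)}
    (h : ∃ M C, IsMatching H M ∧ IsCover H C ∧ C.card ≤ (r - 1) * M.card) :
    tau H ≤ (r - 1) * nu H := by
  obtain ⟨M, C, hM, hC, hle⟩ := h
  have h1 : tau H ≤ C.card := Nat.sInf_le ⟨C, hC, rfl⟩
  have h2 : M.card ≤ nu H := by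
    apply le_csSup
    · refine ⟨H.card, ?_⟩
      rintro k ⟨N, hN, rfl⟩
      exact Finset.card_le_card hN.1
    · exact ⟨M, hM, rfl⟩
  calc tau H ≤ C.card := h1
    _ ≤ (r - 1) * M.card := hle
    _ ≤ (r - 1) * nu H := Nat.mul_le_mul_left _ h2

/-- Bounded line degree: each edge meets at most `2 r - 3` other edges. -/
theorem ryser_line {r : ℕ} (hr : 2 ≤ r) (part : V → Fin r) (H : Finset (Finset V))
    (hH : IsPartite r part H)
    (hline : ∀ e ∈ H, (H.filter (fun f => ¬ Disjoint e f)).card ≤ 2 * r - 2) :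
    tau H ≤ (r - 1) * nu H := by
  apply tau_le_of
  apply crit hr part H.card H rfl hH
  intro K hKH hdeg e he
  have h1 : ∑ v ∈ e, (1 : ℚ) / (deg K v : ℚ) ≤ ∑ _v ∈ e, (1 : ℚ) / 2 := by
    apply Finset.sum_le_sum
    intro v hv
    have := hdeg e he v hv
    apply one_div_le_one_div_of_le (by norm_num)
    exact_mod_cast this
  rw [Finset.sum_const, card_edge hH (hKH he), nsmul_eq_mul] at h1
  have h2 : (K.filter (fun f => ¬ Disjoint e f)).card ≤ 2 * r - 2 :=
    (Finset.card_le_card (Finset.filter_subset_filter _ hKH)).trans (hline e (hKH he))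
  have h3 : ((K.filter (fun f => ¬ Disjoint e f)).card : ℚ) ≤ 2 * (r : ℚ) - 2 := by
    have : (((K.filter (fun f => ¬ Disjoint e f)).card : ℕ) : ℚ) ≤ ((2 * r - 2 : ℕ) : ℚ) := by
      exact_mod_cast h2
    rw [Nat.cast_sub (by omega)] at this
    push_cast at this
    exact this
  have hr2 : (2 : ℚ) ≤ (r : ℚ) := by exact_mod_cast hr
  calc (∑ v ∈ e, (1 : ℚ) / (deg K v : ℚ)) * ((K.filter (fun f => ¬ Disjoint e f)).card : ℚ)
      ≤ ((r : ℚ) * (1 / 2)) * (2 * (r : ℚ) - 2) := by
        apply mul_le_mul h1 h3 (by positivity) (by positivity)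
    _ = (r : ℚ) * ((r : ℚ) - 1) := by ring

/-- Bounded degree. -/
theorem ryser_degree {r D : ℕ} (hr : 2 ≤ r) (hD : 2 ≤ D)
    (hnum : (r * (D + 1) + 1) ^ 2 ≤ 8 * D * (r * (r - 1)) + 1)
    (part : V → Fin r) (H : Finset (Finset V))
    (hH : IsPartite r part H) (hdegH : ∀ v, deg H v ≤ D) :
    tau H ≤ (r - 1) * nu H := by
  apply tau_le_of
  apply crit hr part H.card H rfl hH
  intro K hKH hdeg e he
  have hce := card_edge hH (hKH he)
  have hDq : (0 : ℚ) < (D : ℚ) := by
    have : 0 < D := by omega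
    exact_mod_cast this
  -- chord bound
  have h1 : ∑ v ∈ e, (1 : ℚ) / (deg K v : ℚ) ≤
      ∑ v ∈ e, ((D : ℚ) + 2 - (deg K v : ℚ)) / (2 * D) := by
    apply Finset.sum_le_sum
    intro v hv
    have ha := hdeg e he v hv
    have hb : deg K v ≤ D := (deg_mono hKH v).trans (hdegH v)
    have haq : (2 : ℚ) ≤ (deg K v : ℚ) := by exact_mod_cast ha
    have hbq : (deg K v : ℚ) ≤ (D : ℚ) := by exact_mod_cast hb
    rw [div_le_div_iff₀ (by linarith) (by linarith)]
    nlinarith [mul_nonneg (sub_nonneg.mpr haq) (sub_nonneg.mpr hbq)]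
  rw [← Finset.sum_div, Finset.sum_sub_distrib, Finset.sum_const, hce, nsmul_eq_mul] at h1
  set S := ∑ v ∈ e, deg K v with hS
  have hScast : ∑ v ∈ e, (deg K v : ℚ) = (S : ℚ) := by
    rw [hS]; push_cast; rfl
  rw [hScast] at h1
  have h2 := meet_card he hce
  have hSge : 2 * r ≤ S := by
    rw [hS, ← hce]
    calc 2 * e.card = ∑ _v ∈ e, 2 := by rw [Finset.sum_const, smul_eq_mul, mul_comm]
      _ ≤ ∑ v ∈ e, deg K v := Finset.sum_le_sum (fun v hv => hdeg e he v hv)
  have hSle : S ≤ r * D := by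
    rw [hS, ← hce]
    calc ∑ v ∈ e, deg K v ≤ ∑ _v ∈ e, D :=
          Finset.sum_le_sum (fun v _ => (deg_mono hKH v).trans (hdegH v))
      _ = e.card * D := by rw [Finset.sum_const, smul_eq_mul]
  set N := (K.filter (fun f => ¬ Disjoint e f)).card with hN
  have hNq : (N : ℚ) ≤ (S : ℚ) - r + 1 := by
    have : ((N + r : ℕ) : ℚ) ≤ ((S + 1 : ℕ) : ℚ) := by exact_mod_cast h2
    push_cast at this
    linarith
  have hSleq : (S : ℚ) ≤ (r : ℚ) * D := by exact_mod_cast hSle
  have hSgeq : 2 * (r : ℚ) ≤ (S : ℚ) := by exact_mod_cast hSge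
  have hr2 : (2 : ℚ) ≤ (r : ℚ) := by exact_mod_cast hr
  -- the numerical inequality
  have hkey : (((r : ℤ) * (D + 2) - S) * ((S : ℤ) - r + 1)) ≤ 2 * D * (r * (r - 1)) := by
    have hn : ((r : ℤ) * (D + 1) + 1) ^ 2 ≤ 8 * D * (r * (r - 1)) + 1 := by
      have : (((r * (D + 1) + 1) ^ 2 : ℕ) : ℤ) ≤ ((8 * D * (r * (r - 1)) + 1 : ℕ) : ℤ) := by
        exact_mod_cast hnum
      push_cast at this
      rw [Nat.cast_sub (by omega)] at this
      push_cast at this
      exact this
    have hsq : 4 * (((r : ℤ) * (D + 2) - S) * ((S : ℤ) - r + 1)) ≤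
        ((r : ℤ) * (D + 1) + 1) ^ 2 := by
      nlinarith [sq_nonneg (((r : ℤ) * (D + 2) - S) - ((S : ℤ) - r + 1))]
    have h4 : 4 * (((r : ℤ) * (D + 2) - S) * ((S : ℤ) - r + 1)) ≤
        4 * (2 * D * (r * (r - 1))) + 1 := by
      calc _ ≤ _ := hsq
        _ ≤ _ := hn
        _ = _ := by ring
    omega
  have hkeyq : ((r : ℚ) * (D + 2) - S) * ((S : ℚ) - r + 1) ≤ 2 * D * (r * (r - 1)) := by
    exact_mod_cast hkey
  have hA : (0 : ℚ) ≤ ((r : ℚ) * ((D : ℚ) + 2) - S) / (2 * D) := by
    apply div_nonneg _ (by linarith)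
    nlinarith
  calc (∑ v ∈ e, (1 : ℚ) / (deg K v : ℚ)) * (N : ℚ)
      ≤ (((r : ℚ) * ((D : ℚ) + 2) - S) / (2 * D)) * ((S : ℚ) - r + 1) := by
        apply mul_le_mul h1 hNq (by positivity) hA
    _ = (((r : ℚ) * (D + 2) - S) * ((S : ℚ) - r + 1)) / (2 * D) := by ring
    _ ≤ (2 * D * (r * (r - 1))) / (2 * D) := by
        apply div_le_div_of_nonneg_right hkeyq (by linarith)
    _ = (r : ℚ) * ((r : ℚ) - 1) := by field_simp

end Vale.Agent.P045
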